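import Vale.Agent.P207.H686.K.SB
import Vale.Agent.P207.H686.SBun2

/-!
# P207, line N4, row S-BUNDLE: rank, bounds, invariance, closedness, maximality
-/

set_option linter.all false

open Metric Set Filter Topology
open scoped ContDiff

namespace Vale.Agent.P207.H686

variable {k0 : ℕ} {E W X : Type*} [NormedAddCommGroup E] [NormedSpace ℝ E] [NormedAddCommGroup W]
  [NormedSpace ℝ W]

namespace ZDk

variable [FiniteDimensional ℝ E] [FiniteDimensional ℝ W]

/-- **the zoom** -/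
theorem zoom (D : ZDk k0 E W X) [Nonempty X] {k : ℕ} (hk : k0 ≤ k) :
    ∃ C : ℕ → ℝ, (∀ j, 0 ≤ C j) ∧
      ∀ (v : X) (c : E) (r : ℝ), 0 < r → ball c r ⊆ ball (0 : E) 1 → ∀ w : X,
      ∃ V' : Submodule ℝ W, Module.finrank ℝ V' = Module.finrank ℝ (D.SK k v c r) ∧
        ∀ t ∈ V', ContDiffOn ℝ ∞ (fun x => D.N w x t) (ball 0 1) ∧
          ∀ j, ∀ x ∈ ball (0 : E) 1, ‖iteratedFDeriv ℝ j (fun x => D.N w x t) x‖ ≤ C j * ‖t‖ := by
  have v0 : X := Classical.arbitrary X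
  have hK := D.K_nonneg v0
  have hKb : 0 < D.Kb := lt_of_lt_of_le one_pos D.Kb1
  obtain ⟨C, hC0, hC⟩ := lim_ap (E := E) k (le_trans D.k0_pos hk) (fun j => 2 * (D.M j + D.ME j)) D.K
  refine ⟨C, hC0, fun v c r hr hsub w => ?_⟩
  obtain ⟨p, R, S, u, n, A, L, w', hpO, hBC, hCh, hn, hw'⟩ := D.dense v (ball c (r / 2))
    isOpen_ball ((ball_subset_ball (by linarith)).trans hsub) ⟨c, mem_ball_self (by linarith)⟩ w
  obtain ⟨CS, hCS0, hCS⟩ := D.SK_unif k v c r
  let e : ℕ → (W ≃L[ℝ] W) := fun i => (S i).trans (L i)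
  obtain ⟨ψ, hψ, V', hd, hV'⟩ := grass
    (fun i => (D.SK k v c r).map ((e i).toLinearEquiv : W →ₗ[ℝ] W))
    (Module.finrank ℝ (D.SK k v c r)) (fun i => LinearEquiv.finrank_map_eq _ _)
  refine ⟨V', hd, ?_⟩
  -- unit vectors first
  have key : ∀ t ∈ V', ‖t‖ ≤ 1 → ContDiffOn ℝ ∞ (fun x => D.N w x t) (ball 0 1) ∧
      ∀ j, ∀ x ∈ ball (0 : E) 1, ‖iteratedFDeriv ℝ j (fun x => D.N w x t) x‖ ≤ C j := by
    intro t ht ht1
    refine hC _ (fun x hx => ?_) fun ε hε => ?_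
    · have h1 := (D.N w x).le_opNorm t
      rw [Real.norm_eq_abs] at h1
      calc |D.N w x t| ≤ ‖D.N w x‖ * ‖t‖ := h1
        _ ≤ D.K * 1 := mul_le_mul (D.bd w x hx) ht1 (norm_nonneg _) hK
        _ = D.K := mul_one _
    obtain ⟨s, hs, hst⟩ := hV' t ht
    -- eventual conditions
    have hq0 := D.q_pos
    have e1 : ∀ᶠ i in atTop, ‖s i‖ ≤ 2 := by
      have h1 := hst.norm
      have h2 : ‖t‖ < 2 := by linarith
      filter_upwards [h1.eventually (gt_mem_nhds h2)] with i hi using hi.le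
    have hnψ : Tendsto (fun i => n (ψ i)) atTop atTop := hn.comp hψ.tendsto_atTop
    have e2 : ∀ᶠ i in atTop, D.Kb * D.lam ^ (n (ψ i)) ≤ r / 2 := by
      have h1 : Tendsto (fun i => D.Kb * D.lam ^ (n (ψ i))) atTop (𝓝 (D.Kb * 0)) :=
        ((tendsto_pow_atTop_nhds_zero_of_lt_one D.lam0.le D.lam1).comp hnψ).const_mul _
      rw [mul_zero] at h1
      filter_upwards [h1.eventually (gt_mem_nhds (show (0 : ℝ) < r / 2 by linarith))] with i hi
        using hi.le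
    have e3 : ∀ᶠ i in atTop, CS * D.Kb ^ (k + 1) * 2 * (D.lam ^ k0 * D.Lam) ^ (n (ψ i)) ≤ ε / 4 := by
      have h1 : Tendsto (fun i => CS * D.Kb ^ (k + 1) * 2 * (D.lam ^ k0 * D.Lam) ^ (n (ψ i))) atTop
          (𝓝 (CS * D.Kb ^ (k + 1) * 2 * 0)) :=
        ((tendsto_pow_atTop_nhds_zero_of_lt_one hq0.le D.gap).comp hnψ).const_mul _
      rw [mul_zero] at h1
      filter_upwards [h1.eventually (gt_mem_nhds (show (0 : ℝ) < ε / 4 by linarith))] with i hi
        using hi.le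
    have e4 : ∀ᶠ i in atTop, ∀ x ∈ ball (0 : E) 1, ‖D.N (w' (ψ i)) x - D.N w x‖ ≤ ε / 8 := by
      have h1 := hψ.tendsto_atTop.eventually ((Metric.tendstoUniformlyOn_iff.1 hw') (ε / 8)
        (by positivity))
      filter_upwards [h1] with i hi x hx
      have h2 := hi x hx
      rw [dist_comm, dist_eq_norm] at h2
      exact h2.le
    have e5 : ∀ᶠ i in atTop, D.K * ‖s i - t‖ ≤ ε / 4 := by
      have h1 : Tendsto (fun i => D.K * ‖s i - t‖) atTop (𝓝 (D.K * 0)) :=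
        ((tendsto_iff_norm_sub_tendsto_zero.1 hst)).const_mul _
      rw [mul_zero] at h1
      filter_upwards [h1.eventually (gt_mem_nhds (show (0 : ℝ) < ε / 4 by linarith))] with i hi
        using hi.le
    obtain ⟨i, h1, h2, h3, h4, h5⟩ := (e1.and (e2.and (e3.and (e4.and e5)))).exists
    obtain ⟨σ, hσ, hσs⟩ := hs i
    have hσs' : s i = (L (ψ i)) ((S (ψ i)) σ) := hσs.symm
    obtain ⟨F, hF1, hF2, hF3⟩ := D.approx1 hk hCS0 (hBC (ψ i)) (hCh (ψ i)) (hpO (ψ i)) h2 hsub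
      (hCS σ hσ) hσs' (ε := ε / 4) (by positivity)
    refine ⟨F, hF1, fun x hx => ?_, fun j hj x hx => ?_⟩
    · have h6 := hF2 x hx
      have h7 : CS * D.Kb ^ (k + 1) * ‖s i‖ * (D.lam ^ k0 * D.Lam) ^ n (ψ i) ≤ ε / 4 := by
        refine le_trans ?_ h3
        gcongr
      have h8 : |D.N (w' (ψ i)) x (s i) - D.N w x (s i)| ≤ ε / 4 := by
        have h9 := (D.N (w' (ψ i)) x - D.N w x).le_opNorm (s i)
        rw [ContinuousLinearMap.sub_apply, Real.norm_eq_abs] at h9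
        calc _ ≤ ‖D.N (w' (ψ i)) x - D.N w x‖ * ‖s i‖ := h9
          _ ≤ ε / 8 * 2 := mul_le_mul (h4 x hx) h1 (norm_nonneg _) (by positivity)
          _ = ε / 4 := by ring
      have h10 : |D.N w x (s i) - D.N w x t| ≤ ε / 4 := by
        have h9 := (D.N w x).le_opNorm (s i - t)
        rw [map_sub, Real.norm_eq_abs] at h9
        calc _ ≤ ‖D.N w x‖ * ‖s i - t‖ := h9
          _ ≤ D.K * ‖s i - t‖ := by gcongr; exact D.bd w x hx
          _ ≤ ε / 4 := h5
      have a1 := abs_le.1 h6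
      have a2 := abs_le.1 h8
      have a3 := abs_le.1 h10
      rw [abs_le]
      constructor <;> linarith [a1.1, a1.2, a2.1, a2.2, a3.1, a3.2]
    · refine (hF3 j hj x hx).trans ?_
      have h6 : 0 ≤ D.M j + D.ME j := add_nonneg (D.M_nonneg v0 j) (D.ME_nonneg v0 j)
      gcongr
  intro t ht
  rcases eq_or_ne t 0 with h0 | h0
  · subst h0
    have h1 := key 0 ht (by simp)
    refine ⟨h1.1, fun j x hx => ?_⟩
    have h2 : (fun x => D.N w x (0 : W)) = fun _ : E => (0 : ℝ) := by funext y; simp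
    rw [h2]
    have h3 : iteratedFDeriv ℝ j (fun _ : E => (0 : ℝ)) = 0 := iteratedFDeriv_zero_fun
    rw [h3]; simp
  · have hn0 : 0 < ‖t‖ := norm_pos_iff.2 h0
    have h1 := key (‖t‖⁻¹ • t) (V'.smul_mem _ ht) (by
      rw [norm_smul, norm_inv, norm_norm, inv_mul_cancel₀ hn0.ne'])
    have h2 : (fun x => D.N w x t) = fun x => ‖t‖ • D.N w x (‖t‖⁻¹ • t) := by
      funext y
      rw [map_smul, smul_smul, mul_inv_cancel₀ hn0.ne', one_smul]
    refine ⟨?_, fun j x hx => ?_⟩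
    · rw [h2]; exact h1.1.const_smul _
    · have hj' : ((j : ℕ) : WithTop ℕ∞) ≤ ∞ := by exact_mod_cast (le_top : (j : ℕ∞) ≤ ⊤)
      have h3 := iteratedFDeriv_const_smul_apply (𝕜 := ℝ) (i := j) (a := ‖t‖)
        (f := fun x => D.N w x (‖t‖⁻¹ • t)) (x := x)
        ((h1.1.contDiffAt (isOpen_ball.mem_nhds hx)).of_le hj')
      have h4 : iteratedFDeriv ℝ j (fun x => D.N w x t) x =
          ‖t‖ • iteratedFDeriv ℝ j (fun x => D.N w x (‖t‖⁻¹ • t)) x := by
        rw [h2]; exact h3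
      rw [h4, norm_smul, norm_norm, mul_comm]
      have := h1.2 j x hx
      gcongr

/-- smooth forms are approximable on smaller balls -/
theorem SmO_le_SK (D : ZDk k0 E W X) (k : ℕ) {v : X} {O : Set E} (hO : IsOpen O) {c : E} {r : ℝ}
    (hr : closedBall c r ⊆ O) : D.SmO v O ≤ D.SK k v c r := by
  intro s hs
  have hf : ContDiffOn ℝ ∞ (fun x => D.N v x s) O := hs
  have hk' : ((k : ℕ) : WithTop ℕ∞) ≤ ∞ := by exact_mod_cast (le_top : (k : ℕ∞) ≤ ⊤)
  have hpE : ProperSpace E := FiniteDimensional.proper ℝ E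
  have h1 : ContinuousOn (fun x => iteratedFDeriv ℝ k (fun x => D.N v x s) x) O := by
    intro x hx
    exact (((hf.contDiffAt (hO.mem_nhds hx)).iteratedFDeriv_right (m := 0) (i := k)
      (by simpa using hk')).continuousAt).continuousWithinAt
  obtain ⟨K', hK'⟩ := (isCompact_closedBall c r).exists_bound_of_continuousOn (h1.mono hr)
  refine ⟨|K'|, abs_nonneg _, fun ε hε => ⟨fun x => D.N v x s, hf.mono
    (ball_subset_closedBall.trans hr), fun x hx => ?_, fun x hx => by simpa using hε.le⟩⟩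
  exact (hK' x (ball_subset_closedBall hx)).trans (le_abs_self _)

theorem SK_rank_le (D : ZDk k0 E W X) {k : ℕ} (hk : k0 ≤ k) {v : X} {c : E} {r : ℝ} (hr : 0 < r)
    (hsub : ball c r ⊆ ball (0 : E) 1) (w : X) :
    Module.finrank ℝ (D.SK k v c r) ≤ Module.finrank ℝ (D.Sm w) := by
  haveI : Nonempty X := ⟨v⟩
  obtain ⟨C, -, hC⟩ := D.zoom hk
  obtain ⟨V', hd, hV'⟩ := hC v c r hr hsub w
  rw [← hd]
  exact Submodule.finrank_mono fun t ht => (hV' t ht).1

theorem half_sub : closedBall (0 : E) (1 / 2) ⊆ ball (0 : E) 1 :=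
  closedBall_subset_ball (by norm_num)

/-- **(a)** the rank is constant -/
theorem sm_rank (D : ZDk k0 E W X) (v w : X) :
    Module.finrank ℝ (D.Sm v) = Module.finrank ℝ (D.Sm w) := by
  have h1 : ∀ v w : X, Module.finrank ℝ (D.Sm v) ≤ Module.finrank ℝ (D.Sm w) := by
    intro v w
    have h2 := Submodule.finrank_mono (D.SmO_le_SK k0 (v := v) isOpen_ball (half_sub (E := E)))
    exact le_trans h2 (D.SK_rank_le le_rfl (by norm_num)
      (ball_subset_closedBall.trans half_sub) w)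
  exact le_antisymm (h1 v w) (h1 w v)

/-- **finite smoothness on a small ball is enough** -/
theorem SK_eq (D : ZDk k0 E W X) {k : ℕ} (hk : k0 ≤ k) {v : X} {c : E} {r : ℝ} (hr : 0 < r)
    (hsub : closedBall c r ⊆ ball (0 : E) 1) : D.SK k v c r = D.Sm v :=
  (Submodule.eq_of_le_of_finrank_le (D.SmO_le_SK k isOpen_ball hsub)
    (D.SK_rank_le hk hr (ball_subset_closedBall.trans hsub) v)).symm

/-- **(b)** uniform bounds for all derivatives -/
theorem sm_bound (D : ZDk k0 E W X) : ∃ C : ℕ → ℝ, (∀ k, 0 ≤ C k) ∧ ∀ v, ∀ s ∈ D.Sm v, ∀ k,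
    ∀ x ∈ ball (0 : E) 1, ‖iteratedFDeriv ℝ k (fun y => D.N v y s) x‖ ≤ C k * ‖s‖ := by
  rcases isEmpty_or_nonempty X with hX | hX
  · exact ⟨fun _ => 0, fun _ => le_rfl, fun v => (hX.false v).elim⟩
  obtain ⟨C, hC0, hC⟩ := D.zoom (k := k0) le_rfl
  refine ⟨C, hC0, fun w s hs k x hx => ?_⟩
  obtain ⟨V', hd, hV'⟩ := hC w 0 (1 / 2) (by norm_num)
    (ball_subset_closedBall.trans (half_sub (E := E))) w
  have h1 : V' = D.Sm w := by
    refine Submodule.eq_of_le_of_finrank_eq (fun t ht => (hV' t ht).1) ?_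
    rw [hd, D.SK_eq le_rfl (by norm_num) (half_sub (E := E))]
  exact (hV' s (by rw [h1]; exact hs)).2 k x hx

/-- **(m)** maximality -/
theorem sm_max (D : ZDk k0 E W X) {v : X} {O : Set E} (hO : IsOpen O) (hsub : O ⊆ ball 0 1)
    (hne : O.Nonempty) {s : W} (hs : ContDiffOn ℝ ∞ (fun x => D.N v x s) O) : s ∈ D.Sm v := by
  obtain ⟨c, hc⟩ := hne
  obtain ⟨r, hr, hrO⟩ := Metric.nhds_basis_closedBall.mem_iff.1 (hO.mem_nhds hc)
  rw [← D.SK_eq (k := k0) le_rfl hr (hrO.trans hsub)]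
  exact D.SmO_le_SK k0 hO hrO hs

/-- **(e')** finite smoothness, closure form -/
theorem sm_fin (D : ZDk k0 E W X) {k : ℕ} (hk : k0 ≤ k) {v : X} {O : Set E} (hO : IsOpen O)
    (hsub : O ⊆ ball 0 1) (hne : O.Nonempty) {s : W} {K' : ℝ} (f : ℕ → E → ℝ)
    (hf : ∀ n, ContDiffOn ℝ ∞ (f n) O)
    (hb : ∀ n, ∀ x ∈ O, ‖iteratedFDeriv ℝ k (f n) x‖ ≤ K')
    (hlim : TendstoUniformlyOn f (fun x => D.N v x s) atTop O) : s ∈ D.Sm v := by
  obtain ⟨c, hc⟩ := hne
  obtain ⟨r, hr, hrO⟩ := Metric.nhds_basis_closedBall.mem_iff.1 (hO.mem_nhds hc)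
  have hbO : ball c r ⊆ O := ball_subset_closedBall.trans hrO
  rw [← D.SK_eq hk hr (hrO.trans hsub)]
  refine ⟨|K'|, abs_nonneg _, fun ε hε => ?_⟩
  obtain ⟨n, hn⟩ := ((Metric.tendstoUniformlyOn_iff.1 hlim) ε hε).exists
  refine ⟨f n, (hf n).mono hbO, fun x hx => (hb n x (hbO hx)).trans (le_abs_self _),
    fun x hx => ?_⟩
  have h1 := hn x (hbO hx)
  rw [dist_comm, Real.dist_eq] at h1
  exact h1.le

/-- **(c)** invariance under the flow -/
theorem sm_step (D : ZDk k0 E W X) {v : X} {A : E ≃L[ℝ] E} {L : W ≃L[ℝ] W} {v' : X}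
    (h : D.St v A L v') (s : W) : s ∈ D.Sm v ↔ L s ∈ D.Sm v' := by
  obtain ⟨e, he, -, hN⟩ := D.St_N h
  have hes : ContDiffOn ℝ ∞ (fun x => e x (L s)) (ball 0 1) := he.clm_apply contDiffOn_const
  have hmem : ∀ x ∈ ball (0 : E) 1, A.symm x ∈ ball (0 : E) 1 := by
    intro x hx
    rw [mem_ball_zero_iff] at hx ⊢
    have h1 := D.St_A h x
    have h2 : D.lam * ‖x‖ ≤ 1 * ‖x‖ := by gcongr; exact D.lam1.le
    linarith
  constructor
  · intro hs
    have hs' : ContDiffOn ℝ ∞ (fun x => D.N v x s) (ball 0 1) := hs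
    have h1 : ContDiffOn ℝ ∞ (fun x => D.N v (A.symm x) s) (ball 0 1) :=
      hs'.comp A.symm.contDiff.contDiffOn hmem
    have h2 : ContDiffOn ℝ ∞ (fun x => D.N v' x (L s)) (ball 0 1) :=
      (h1.add hes).congr fun x hx => hN x hx s
    exact h2
  · intro hs
    have hs' : ContDiffOn ℝ ∞ (fun x => D.N v' x (L s)) (ball 0 1) := hs
    let O : Set E := (fun y => A y) ⁻¹' (ball 0 1)
    have hO : IsOpen O := isOpen_ball.preimage A.continuous
    have hOs : O ⊆ ball 0 1 := by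
      intro y hy
      have h3 := hmem (A y) hy
      rwa [A.symm_apply_apply] at h3
    refine D.sm_max hO hOs ⟨0, by simp [O]⟩ ?_
    have h1 : ContDiffOn ℝ ∞ (fun y => D.N v' (A y) (L s) - e (A y) (L s)) O :=
      (hs'.sub hes).comp A.contDiff.contDiffOn fun y hy => hy
    refine h1.congr fun y hy => ?_
    have h2 := hN (A y) hy s
    rw [A.symm_apply_apply] at h2
    rw [h2]; ring

/-- **(c)** invariance under base change -/
theorem sm_bc (D : ZDk k0 E W X) {v : X} {p : E} {R : E ≃L[ℝ] E} {S : W ≃L[ℝ] W} {v' : X}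
    (h : D.BC v p R S v') (s : W) : s ∈ D.Sm v ↔ S s ∈ D.Sm v' := by
  obtain ⟨e, he, -, hN⟩ := D.BC_N h
  have hp := D.BC_p h
  let U : Set E := {x | x ∈ ball (0 : E) 1 ∧ p + R.symm x ∈ ball (0 : E) 1}
  have hU : IsOpen U := isOpen_ball.inter (isOpen_ball.preimage (by fun_prop))
  have hes : ContDiffOn ℝ ∞ (fun x => e x (S s)) U := he.clm_apply contDiffOn_const
  constructor
  · intro hs
    have hs' : ContDiffOn ℝ ∞ (fun x => D.N v x s) (ball 0 1) := hs
    refine D.sm_max hU (fun x hx => hx.1) ⟨0, by simp [U, hp]⟩ ?_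
    have h1 : ContDiffOn ℝ ∞ (fun x => D.N v (p + R.symm x) s) U :=
      hs'.comp (contDiff_const.add R.symm.contDiff).contDiffOn fun x hx => hx.2
    exact (h1.add hes).congr fun x hx => hN x hx.1 hx.2 s
  · intro hs
    have hs' : ContDiffOn ℝ ∞ (fun x => D.N v' x (S s)) (ball 0 1) := hs
    let O : Set E := {y | y ∈ ball (0 : E) 1 ∧ R (y - p) ∈ ball (0 : E) 1}
    have hO : IsOpen O := isOpen_ball.inter (isOpen_ball.preimage (by fun_prop))
    have hOU : ∀ y ∈ O, R (y - p) ∈ U := by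
      intro y hy
      refine ⟨hy.2, ?_⟩
      rw [R.symm_apply_apply, add_sub_cancel]
      exact hy.1
    refine D.sm_max hO (fun x hx => hx.1) ⟨p, by simp [O, hp]⟩ ?_
    have h1 : ContDiffOn ℝ ∞ (fun y => D.N v' (R (y - p)) (S s) - e (R (y - p)) (S s)) O :=
      ((hs'.mono fun x (hx : x ∈ U) => hx.1).sub hes).comp
        (R.contDiff.comp (contDiff_id.sub contDiff_const)).contDiffOn hOU
    refine h1.congr fun y hy => ?_
    have h2 := hN (R (y - p)) (hOU y hy).1 (hOU y hy).2 s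
    rw [R.symm_apply_apply, add_sub_cancel] at h2
    rw [h2]; ring

theorem sm_ch (D : ZDk k0 E W X) {v : X} {n : ℕ} {A : E ≃L[ℝ] E} {L : W ≃L[ℝ] W} {v' : X}
    (h : Ch D.St v n A L v') (s : W) : s ∈ D.Sm v ↔ L s ∈ D.Sm v' := by
  induction h with
  | zero => exact Iff.rfl
  | @succ n A L v' A' L' v'' h h' ih =>
    rw [ih, D.sm_step h' (L s)]
    rfl

/-- **(d)** closedness -/
theorem sm_closed (D : ZDk k0 E W X) {v : ℕ → X} {w : X}
    (hv : TendstoUniformlyOn (fun n => D.N (v n)) (D.N w) atTop (ball 0 1)) {s : ℕ → W} {t : W}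
    (hs : ∀ n, s n ∈ D.Sm (v n)) (hst : Tendsto s atTop (𝓝 t)) : t ∈ D.Sm w := by
  obtain ⟨C, hC0, hC⟩ := D.sm_bound
  obtain ⟨B, hB⟩ : ∃ B, ∀ n, ‖s n‖ ≤ B := by
    obtain ⟨B, hB⟩ := hst.norm.bddAbove_range
    exact ⟨B, fun n => hB ⟨n, rfl⟩⟩
  have h1 := lim_smooth (M := fun k => C k * B) (isOpen_ball (x := (0 : E)) (ε := 1))
    (convex_ball _ _) isBounded_ball (f := fun n x => D.N (v n) x (s n))
    (g := fun x => D.N w x t) (fun n => hs n)
    (fun n k x hx => (hC (v n) (s n) (hs n) k x hx).trans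
      (mul_le_mul_of_nonneg_left (hB n) (hC0 k)))
    (fun x hx => by
      have h2 : Tendsto (fun n => D.N (v n) x) atTop (𝓝 (D.N w x)) := hv.tendsto_at hx
      have h3 : Continuous fun q : (W →L[ℝ] ℝ) × W => q.1 q.2 :=
        (isBoundedBilinearMap_apply (𝕜 := ℝ) (E := W) (F := ℝ)).continuous
      exact (h3.tendsto (D.N w x, t)).comp (h2.prodMk_nhds hst))
  exact h1.1

end ZDk

end Vale.Agent.P207.H686
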