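import Vale.Agent.P207.H686.K.Basis

/-!
# P207, Q'': closeness of the S-bundle at close frames

`sm_close`: vectors of `D.Sm w` are close to vectors of `D.Sm v`; `sm_close'` the other way.
-/

set_option linter.all false

open Metric Set Filter Topology Module
open scoped ContDiff

namespace Vale.Agent.P207.H686

/-- the coordinates in a basis are bounded -/
theorem coord_bd {W : Type*} [NormedAddCommGroup W] [NormedSpace ℝ W] [FiniteDimensional ℝ W]
    {k : ℕ} {b : Fin k → W} (hb : LinearIndependent ℝ b) :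
    ∃ C > 0, ∀ c : Fin k → ℝ, ‖c‖ ≤ C * ‖∑ i, c i • b i‖ := by
  let f : (Fin k → ℝ) →ₗ[ℝ] W := Fintype.linearCombination ℝ b
  have hf : LinearMap.ker f = ⊥ := by
    rw [LinearMap.ker_eq_bot']
    intro c hc
    have h1 : ∑ i, c i • b i = 0 := hc
    exact funext fun i => Fintype.linearIndependent_iff.1 hb c h1 i
  obtain ⟨C, hC, hlip⟩ := (LinearMap.toContinuousLinearMap f).exists_antilipschitzWith hf
  refine ⟨C, by exact_mod_cast hC, fun c => ?_⟩
  have h := hlip.le_mul_dist c 0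
  rw [dist_zero_right, map_zero, dist_zero_right] at h
  exact h

theorem comb_bd {W : Type*} [NormedAddCommGroup W] [NormedSpace ℝ W] {k : ℕ}
    (c : Fin k → ℝ) (b : Fin k → W) : ‖∑ i, c i • b i‖ ≤ k * ‖b‖ * ‖c‖ := by
  refine (norm_sum_le _ _).trans ?_
  calc ∑ i, ‖c i • b i‖ ≤ ∑ i : Fin k, ‖c‖ * ‖b‖ := by
        refine Finset.sum_le_sum fun i _ => ?_
        rw [norm_smul]
        exact mul_le_mul (norm_le_pi_norm c i) (norm_le_pi_norm b i) (norm_nonneg _) (norm_nonneg _)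
    _ = k * ‖b‖ * ‖c‖ := by
        rw [Finset.sum_const, Finset.card_univ, Fintype.card_fin, nsmul_eq_mul]
        ring

variable {k0 : ℕ} {E W X : Type*} [NormedAddCommGroup E] [NormedSpace ℝ E] [NormedAddCommGroup W]
  [NormedSpace ℝ W]

namespace ZDk

theorem sm_close2 [FiniteDimensional ℝ E] [FiniteDimensional ℝ W] (D : ZDk k0 E W X) (w : X)
    {η : ℝ} (hη : 0 < η) : ∃ ε > 0, ∀ v, (∀ x ∈ ball (0 : E) 1, ‖D.N v x - D.N w x‖ ≤ ε) →
      (∀ p ∈ D.Sm w, ∃ q ∈ D.Sm v, ‖q - p‖ ≤ η * ‖p‖) ∧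
      ∀ q ∈ D.Sm v, ∃ p ∈ D.Sm w, ‖q - p‖ ≤ η * ‖q‖ := by
  obtain ⟨k, hk⟩ : ∃ k, finrank ℝ (D.Sm w) = k := ⟨_, rfl⟩
  obtain ⟨b, hb⟩ := exists_isB (D.Sm w) hk
  obtain ⟨C, hC, hcb⟩ := coord_bd hb.1
  -- the size of the perturbation
  set θ : ℝ := min 1 η / (2 * C * (k + 1)) with hθ
  have hθ0 : 0 < θ := by
    have : 0 < min 1 η := lt_min one_pos hη
    positivity
  have hkθ : (k : ℝ) * θ * C ≤ min 1 η / 2 := by
    rw [hθ]
    have h1 : (0 : ℝ) < k + 1 := by positivity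
    have h2 : 0 < min 1 η := lt_min one_pos hη
    have h3 : (k : ℝ) * (min 1 η / (2 * C * (k + 1))) * C = (min 1 η / 2) * (k / (k + 1)) := by
      field_simp
    rw [h3]
    have h4 : (k : ℝ) / (k + 1) ≤ 1 := by
      rw [div_le_one h1]; linarith
    calc (min 1 η / 2) * (k / (k + 1)) ≤ (min 1 η / 2) * 1 :=
          mul_le_mul_of_nonneg_left h4 (by positivity)
      _ = _ := mul_one _
  obtain ⟨ε, hε, hnear⟩ := D.sm_basis_near hb hθ0
  refine ⟨ε, hε, fun v hv => ?_⟩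
  obtain ⟨β, hβ, hβb⟩ := hnear v hv
  have hdiff : ∀ c : Fin k → ℝ, ‖∑ i, c i • β i - ∑ i, c i • b i‖ ≤ k * θ * ‖c‖ := by
    intro c
    have h1 : ∑ i, c i • β i - ∑ i, c i • b i = ∑ i, c i • (β - b) i := by
      rw [← Finset.sum_sub_distrib]
      exact Finset.sum_congr rfl fun i _ => by rw [Pi.sub_apply, smul_sub]
    rw [h1]
    refine (comb_bd c (β - b)).trans ?_
    exact mul_le_mul_of_nonneg_right (mul_le_mul_of_nonneg_left hβb (by positivity))
      (norm_nonneg _)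
  constructor
  · intro p hp
    rw [← hb.2] at hp
    obtain ⟨c, rfl⟩ := (Submodule.mem_span_range_iff_exists_fun ℝ).1 hp
    refine ⟨∑ i, c i • β i, Submodule.sum_mem _ fun i _ => Submodule.smul_mem _ _ (hβ.mem i), ?_⟩
    refine (hdiff c).trans ?_
    calc (k : ℝ) * θ * ‖c‖ ≤ k * θ * (C * ‖∑ i, c i • b i‖) :=
          mul_le_mul_of_nonneg_left (hcb c) (by positivity)
      _ = (k * θ * C) * ‖∑ i, c i • b i‖ := by ring
      _ ≤ η * ‖∑ i, c i • b i‖ := by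
          refine mul_le_mul_of_nonneg_right (hkθ.trans ?_) (norm_nonneg _)
          have := min_le_right 1 η
          linarith [lt_min one_pos hη]
  · intro q hq
    rw [← hβ.2] at hq
    obtain ⟨c, rfl⟩ := (Submodule.mem_span_range_iff_exists_fun ℝ).1 hq
    refine ⟨∑ i, c i • b i, Submodule.sum_mem _ fun i _ => Submodule.smul_mem _ _ (hb.mem i), ?_⟩
    have h1 := hdiff c
    have h2 := hcb c
    have h3 : ‖∑ i, c i • b i‖ ≤ ‖∑ i, c i • β i‖ + k * θ * ‖c‖ := by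
      have h4 : ∑ i, c i • b i = ∑ i, c i • β i - (∑ i, c i • β i - ∑ i, c i • b i) := by abel
      rw [h4]
      exact (norm_sub_le _ _).trans (by linarith)
    have h5 : ‖c‖ ≤ C * ‖∑ i, c i • β i‖ + (min 1 η / 2) * ‖c‖ := by
      calc ‖c‖ ≤ C * ‖∑ i, c i • b i‖ := h2
        _ ≤ C * (‖∑ i, c i • β i‖ + k * θ * ‖c‖) := mul_le_mul_of_nonneg_left h3 hC.le
        _ = C * ‖∑ i, c i • β i‖ + (k * θ * C) * ‖c‖ := by ring
        _ ≤ _ := by
            have := mul_le_mul_of_nonneg_right hkθ (norm_nonneg c)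
            linarith
    have h6 : ‖c‖ ≤ 2 * C * ‖∑ i, c i • β i‖ := by
      have h7 : (min 1 η / 2) * ‖c‖ ≤ (1 / 2) * ‖c‖ :=
        mul_le_mul_of_nonneg_right (by linarith [min_le_left 1 η]) (norm_nonneg _)
      linarith
    calc ‖∑ i, c i • β i - ∑ i, c i • b i‖ ≤ k * θ * ‖c‖ := h1
      _ ≤ k * θ * (2 * C * ‖∑ i, c i • β i‖) := mul_le_mul_of_nonneg_left h6 (by positivity)
      _ = (k * θ * C) * 2 * ‖∑ i, c i • β i‖ := by ring
      _ ≤ η * ‖∑ i, c i • β i‖ := by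
          refine mul_le_mul_of_nonneg_right ?_ (norm_nonneg _)
          have := min_le_right 1 η
          linarith

/-- **closeness of the S-bundle at close frames** -/
theorem sm_close [FiniteDimensional ℝ E] [FiniteDimensional ℝ W] (D : ZDk k0 E W X) (w : X)
    {η : ℝ} (hη : 0 < η) : ∃ ε > 0, ∀ v, (∀ x ∈ ball (0 : E) 1, ‖D.N v x - D.N w x‖ ≤ ε) →
      ∀ p ∈ D.Sm w, ∃ q ∈ D.Sm v, ‖q - p‖ ≤ η * ‖p‖ := by
  obtain ⟨ε, hε, h⟩ := D.sm_close2 w hη
  exact ⟨ε, hε, fun v hv => (h v hv).1⟩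

/-- the other direction -/
theorem sm_close' [FiniteDimensional ℝ E] [FiniteDimensional ℝ W] (D : ZDk k0 E W X) (w : X)
    {η : ℝ} (hη : 0 < η) : ∃ ε > 0, ∀ v, (∀ x ∈ ball (0 : E) 1, ‖D.N v x - D.N w x‖ ≤ ε) →
      ∀ q ∈ D.Sm v, ∃ p ∈ D.Sm w, ‖q - p‖ ≤ η * ‖q‖ := by
  obtain ⟨ε, hε, h⟩ := D.sm_close2 w hη
  exact ⟨ε, hε, fun v hv => (h v hv).2⟩

end ZDk

end Vale.Agent.P207.H686
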