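import Vale.Agent.P207.H686.K.SB2

/-!
# P207, Q'': local bases of the S-bundle

No topology on `X`: `v n → w` means uniform convergence of `N` on the unit disc.
* `basis_lim`, `vec_lim`: closed families of subspaces of constant rank have convergent bases.
* `sm_vec`, `sm_basis`: the same for `D.Sm` (sequences); `sm_basis_near`: with `ε`, `δ`.
* `bases_of_dense`: a closed set of `k`-tuples which contains the bases along a sequence of frames
  converging to `w` contains all bases of `D.Sm w`.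
-/

set_option linter.all false

open Metric Set Filter Topology Module
open scoped ContDiff

namespace Vale.Agent.P207.H686

section lin
variable {W : Type*} [NormedAddCommGroup W] [NormedSpace ℝ W] [FiniteDimensional ℝ W]

/-- a projection onto the limit is bounded below on the subspaces of a closed family -/
theorem proj_below {S : ℕ → Submodule ℝ W} {S0 : Submodule ℝ W} (P : W →L[ℝ] W)
    (hP : ∀ s ∈ S0, P s = s)
    (hcl : ∀ (ψ : ℕ → ℕ) (s : ℕ → W) (t : W), Tendsto ψ atTop atTop → (∀ n, s n ∈ S (ψ n)) →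
      Tendsto s atTop (𝓝 t) → t ∈ S0) :
    ∃ c > 0, ∀ᶠ n in atTop, ∀ s ∈ S n, c * ‖s‖ ≤ ‖P s‖ := by
  by_contra hcon
  push Not at hcon
  have h1 : ∀ m : ℕ, ∃ n ≥ m, ∃ s ∈ S n, ‖s‖ = 1 ∧ ‖P s‖ ≤ 1 / ((m : ℝ) + 1) := by
    intro m
    obtain ⟨n, hn, s, hs, hlt⟩ := (hcon (1 / ((m : ℝ) + 1)) (by positivity)).forall_exists_of_atTop m
    have hs0 : 0 < ‖s‖ := by
      rcases eq_or_lt_of_le (norm_nonneg s) with h | h
      · rw [← h, mul_zero] at hlt
        exact absurd hlt (not_lt.2 (norm_nonneg _))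
      · exact h
    refine ⟨n, hn, ‖s‖⁻¹ • s, (S n).smul_mem _ hs, ?_, ?_⟩
    · rw [norm_smul, norm_inv, norm_norm, inv_mul_cancel₀ hs0.ne']
    · rw [map_smul, norm_smul, norm_inv, norm_norm, inv_mul_le_iff₀ hs0]
      exact le_trans hlt.le (le_of_eq (mul_comm _ _))
  choose ψ hψ s hs hs1 hPs using h1
  haveI : ProperSpace W := FiniteDimensional.proper ℝ W
  obtain ⟨t, ht, χ, hχ, hlim⟩ := (isCompact_sphere (0 : W) 1).tendsto_subseq
    (x := s) (fun n => by simpa using hs1 n)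
  have hψ' : Tendsto (ψ ∘ χ) atTop atTop := (tendsto_atTop_mono hψ tendsto_id).comp hχ.tendsto_atTop
  have htS : t ∈ S0 := hcl (ψ ∘ χ) (s ∘ χ) t hψ' (fun n => hs _) hlim
  have h2 : Tendsto (fun n => ‖P (s (χ n))‖) atTop (𝓝 ‖P t‖) :=
    ((P.continuous.tendsto t).comp hlim).norm
  have h3 : Tendsto (fun n : ℕ => 1 / (((χ n : ℕ) : ℝ) + 1)) atTop (𝓝 0) :=
    tendsto_one_div_add_atTop_nhds_zero_nat.comp hχ.tendsto_atTop
  have h4 : ‖P t‖ ≤ 0 := le_of_tendsto_of_tendsto' h2 h3 fun n => hPs _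
  rw [hP t htS] at h4
  have h5 : ‖t‖ = 1 := by simpa using ht
  linarith

/-- **convergent vectors and bases** of a closed family of subspaces of constant rank: with a linear
choice -/
theorem lin_lim {S : ℕ → Submodule ℝ W} {S0 : Submodule ℝ W}
    (hr : ∀ n, finrank ℝ (S n) = finrank ℝ S0)
    (hcl : ∀ (ψ : ℕ → ℕ) (s : ℕ → W) (t : W), Tendsto ψ atTop atTop → (∀ n, s n ∈ S (ψ n)) →
      Tendsto s atTop (𝓝 t) → t ∈ S0) :
    ∃ J : ℕ → S0 →ₗ[ℝ] W, (∀ᶠ n in atTop, Function.Injective (J n) ∧ LinearMap.range (J n) = S n) ∧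
      ∀ t : S0, Tendsto (fun n => J n t) atTop (𝓝 (t : W)) := by
  classical
  obtain ⟨C, hC⟩ := Submodule.exists_isCompl S0
  let P0 : W →ₗ[ℝ] S0 := Submodule.projectionOnto S0 C hC
  have hP0 : ∀ s : S0, P0 s = s := fun s => Submodule.projectionOnto_apply_left hC s
  let P : W →L[ℝ] W := LinearMap.toContinuousLinearMap (S0.subtype ∘ₗ P0)
  have hPa : ∀ s, P s = (P0 s : W) := fun s => rfl
  have hP : ∀ s ∈ S0, P s = s := fun s hs => by rw [hPa, hP0 ⟨s, hs⟩]
  obtain ⟨c, hc, hev⟩ := proj_below P hP hcl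
  have hinj : ∀ n, (∀ s ∈ S n, c * ‖s‖ ≤ ‖P s‖) →
      Function.Injective (P0 ∘ₗ (S n).subtype) := by
    intro n hn
    rw [← LinearMap.ker_eq_bot, LinearMap.ker_eq_bot']
    intro s hs
    have h1 := hn s s.2
    have h2 : P s = 0 := by
      rw [hPa]
      have h3 : P0 (s : W) = 0 := hs
      rw [h3]; rfl
    rw [h2, norm_zero] at h1
    have h3 : ‖(s : W)‖ ≤ 0 := by
      by_contra hcon
      push Not at hcon
      exact absurd h1 (not_le.2 (mul_pos hc hcon))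
    exact Subtype.ext (norm_le_zero_iff.1 h3)
  have hex : ∀ n, ∃ J : S0 →ₗ[ℝ] W, (∀ s ∈ S n, c * ‖s‖ ≤ ‖P s‖) →
      Function.Injective J ∧ LinearMap.range J = S n ∧ ∀ t, P0 (J t) = t := by
    intro n
    by_cases hn : ∀ s ∈ S n, c * ‖s‖ ≤ ‖P s‖
    · let e : S n ≃ₗ[ℝ] S0 := LinearEquiv.ofInjectiveOfFinrankEq (P0 ∘ₗ (S n).subtype) (hinj n hn)
        (hr n)
      refine ⟨(S n).subtype ∘ₗ (e.symm : S0 →ₗ[ℝ] S n), fun _ => ⟨?_, ?_, ?_⟩⟩
      · exact (Submodule.injective_subtype _).comp e.symm.injective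
      · rw [LinearMap.range_comp, LinearEquiv.range, Submodule.map_top, Submodule.range_subtype]
      · intro t
        exact e.apply_symm_apply t
    · exact ⟨0, fun h => absurd h hn⟩
  choose J hJ using hex
  refine ⟨J, hev.mono fun n hn => ⟨(hJ n hn).1, (hJ n hn).2.1⟩, fun t => ?_⟩
  haveI : ProperSpace W := FiniteDimensional.proper ℝ W
  have hbd : ∀ᶠ n in atTop, ‖J n t‖ ≤ c⁻¹ * ‖(t : W)‖ := by
    filter_upwards [hev] with n hn
    have h1 := hn (J n t) (by rw [← (hJ n hn).2.1]; exact ⟨t, rfl⟩)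
    rw [hPa, (hJ n hn).2.2 t] at h1
    rw [le_inv_mul_iff₀ hc]
    exact h1
  refine tendsto_of_subseq_tendsto fun ns hns => ?_
  obtain ⟨N, hN⟩ := ((hns.eventually hbd).and (hns.eventually hev)).exists_forall_of_atTop
  obtain ⟨l, -, χ, hχ, hlim⟩ := (isCompact_closedBall (0 : W) (c⁻¹ * ‖(t : W)‖)).tendsto_subseq
    (x := fun m => J (ns (N + m)) t) (fun m => by simpa using (hN (N + m) (by omega)).1)
  refine ⟨fun m => N + χ m, ?_⟩
  have hψ : Tendsto (fun m => ns (N + χ m)) atTop atTop :=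
    hns.comp ((tendsto_atTop_mono (fun m => Nat.le_add_left _ _) hχ.tendsto_atTop))
  have hlS : l ∈ S0 := hcl _ _ l hψ (fun m => by
    have h1 := (hJ (ns (N + χ m)) (hN (N + χ m) (by omega)).2).2.1
    rw [← h1]
    exact ⟨t, rfl⟩) hlim
  have h2 : Tendsto (fun m => P (J (ns (N + χ m)) t)) atTop (𝓝 (P l)) :=
    (P.continuous.tendsto l).comp hlim
  have h3 : ∀ m, P (J (ns (N + χ m)) t) = t := fun m => by
    rw [hPa, (hJ _ (hN (N + χ m) (by omega)).2).2.2 t]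
  rw [hP l hlS] at h2
  simp only [h3] at h2
  have h4 : l = t := (tendsto_nhds_unique h2 tendsto_const_nhds)
  rw [← h4]
  exact hlim

/-- a basis of the subspace `S` -/
def IsB {k : ℕ} (b : Fin k → W) (S : Submodule ℝ W) : Prop :=
  LinearIndependent ℝ b ∧ Submodule.span ℝ (range b) = S

theorem IsB.mem {k : ℕ} {b : Fin k → W} {S : Submodule ℝ W} (h : IsB b S) (i : Fin k) : b i ∈ S := by
  rw [← h.2]; exact Submodule.subset_span ⟨i, rfl⟩

theorem IsB.map {k : ℕ} {b : Fin k → W} {S : Submodule ℝ W} (h : IsB b S) (L : W ≃L[ℝ] W)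
    {S' : Submodule ℝ W} (hS : ∀ s, s ∈ S ↔ L s ∈ S') : IsB (fun i => L (b i)) S' := by
  have h1 : S.map (L.toLinearEquiv : W →ₗ[ℝ] W) = S' := by
    ext t
    constructor
    · rintro ⟨s, hs, rfl⟩
      exact (hS s).1 hs
    · intro ht
      refine ⟨L.symm t, (hS _).2 ?_, L.apply_symm_apply t⟩
      rw [L.apply_symm_apply]; exact ht
  refine ⟨?_, ?_⟩
  · exact h.1.map' (L.toLinearEquiv : W →ₗ[ℝ] W) (LinearMap.ker_eq_bot.2 L.injective)
  · rw [← h1, ← h.2, Submodule.map_span, ← range_comp]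
    rfl

theorem IsB.finrank {k : ℕ} {b : Fin k → W} {S : Submodule ℝ W} (h : IsB b S) :
    finrank ℝ S = k := by
  rw [← h.2, finrank_span_eq_card h.1, Fintype.card_fin]

theorem exists_isB (S : Submodule ℝ W) {k : ℕ} (hk : finrank ℝ S = k) :
    ∃ b : Fin k → W, IsB b S := by
  let B := (finBasisOfFinrankEq ℝ S hk)
  refine ⟨fun i => (B i : W), ?_, ?_⟩
  · exact B.linearIndependent.map' S.subtype (Submodule.ker_subtype S)
  · have h1 := congrArg (Submodule.map S.subtype) B.span_eq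
    rw [Submodule.map_span, Submodule.map_top, Submodule.range_subtype, ← range_comp] at h1
    exact h1

/-- the coordinates of one basis in another -/
theorem IsB.coord {k : ℕ} {b b' : Fin k → W} {S : Submodule ℝ W} (h : IsB b S) (h' : IsB b' S) :
    ∃ c : Fin k → Fin k → ℝ, ∀ i, b' i = ∑ j, c i j • b j := by
  have h1 : ∀ i, ∃ c : Fin k → ℝ, ∑ j, c j • b j = b' i := by
    intro i
    have h2 := h'.mem i
    rw [← h.2] at h2
    exact (Submodule.mem_span_range_iff_exists_fun ℝ).1 h2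
  choose c hc using h1
  exact ⟨c, fun i => (hc i).symm⟩

/-- **convergent bases** -/
theorem basis_lim {S : ℕ → Submodule ℝ W} {S0 : Submodule ℝ W} {k : ℕ}
    (hr : ∀ n, finrank ℝ (S n) = finrank ℝ S0)
    (hcl : ∀ (ψ : ℕ → ℕ) (s : ℕ → W) (t : W), Tendsto ψ atTop atTop → (∀ n, s n ∈ S (ψ n)) →
      Tendsto s atTop (𝓝 t) → t ∈ S0) {b : Fin k → W} (hb : IsB b S0) :
    ∃ β : ℕ → Fin k → W, (∀ᶠ n in atTop, IsB (β n) (S n)) ∧ Tendsto β atTop (𝓝 b) := by
  obtain ⟨J, hJ, hlim⟩ := lin_lim hr hcl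
  let b' : Fin k → S0 := fun i => ⟨b i, hb.mem i⟩
  have hb' : LinearIndependent ℝ b' := LinearIndependent.of_comp S0.subtype hb.1
  have hspan : Submodule.span ℝ (range b') = ⊤ :=
    hb'.span_eq_top_of_card_eq_finrank' (by rw [hb.finrank, Fintype.card_fin])
  refine ⟨fun n i => J n (b' i), hJ.mono fun n hn => ⟨?_, ?_⟩, ?_⟩
  · exact hb'.map' (J n) (LinearMap.ker_eq_bot.2 hn.1)
  · have h1 := congrArg (Submodule.map (J n)) hspan
    rw [Submodule.map_span, Submodule.map_top, hn.2, ← range_comp] at h1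
    exact h1
  · exact tendsto_pi_nhds.2 fun i => hlim (b' i)

/-- **convergent vectors** -/
theorem vec_lim {S : ℕ → Submodule ℝ W} {S0 : Submodule ℝ W}
    (hr : ∀ n, finrank ℝ (S n) = finrank ℝ S0)
    (hcl : ∀ (ψ : ℕ → ℕ) (s : ℕ → W) (t : W), Tendsto ψ atTop atTop → (∀ n, s n ∈ S (ψ n)) →
      Tendsto s atTop (𝓝 t) → t ∈ S0) {t : W} (ht : t ∈ S0) :
    ∃ s : ℕ → W, (∀ n, s n ∈ S n) ∧ Tendsto s atTop (𝓝 t) := by
  classical
  obtain ⟨J, hJ, hlim⟩ := lin_lim hr hcl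
  refine ⟨fun n => if J n ⟨t, ht⟩ ∈ S n then J n ⟨t, ht⟩ else 0, fun n => ?_, ?_⟩
  · dsimp only
    split_ifs with h
    · exact h
    · exact (S n).zero_mem
  · refine (hlim ⟨t, ht⟩).congr' (hJ.mono fun n hn => ?_)
    dsimp only
    rw [if_pos]
    rw [← hn.2]
    exact ⟨_, rfl⟩

end lin

variable {k0 : ℕ} {E W X : Type*} [NormedAddCommGroup E] [NormedSpace ℝ E] [NormedAddCommGroup W]
  [NormedSpace ℝ W]

namespace ZDk

variable [FiniteDimensional ℝ E] [FiniteDimensional ℝ W]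

theorem sm_cl (D : ZDk k0 E W X) {v : ℕ → X} {w : X}
    (hv : TendstoUniformlyOn (fun n => D.N (v n)) (D.N w) atTop (ball 0 1)) (ψ : ℕ → ℕ) (s : ℕ → W)
    (t : W) (hψ : Tendsto ψ atTop atTop) (hs : ∀ n, s n ∈ D.Sm (v (ψ n)))
    (ht : Tendsto s atTop (𝓝 t)) : t ∈ D.Sm w := by
  refine D.sm_closed (v := fun n => v (ψ n)) ?_ hs ht
  rw [Metric.tendstoUniformlyOn_iff] at hv ⊢
  intro ε hε
  exact hψ.eventually (hv ε hε)

/-- **vectors of `D.Sm w` are limits of vectors of `D.Sm (v n)`** -/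
theorem sm_vec (D : ZDk k0 E W X) {v : ℕ → X} {w : X}
    (hv : TendstoUniformlyOn (fun n => D.N (v n)) (D.N w) atTop (ball 0 1)) {t : W}
    (ht : t ∈ D.Sm w) : ∃ s : ℕ → W, (∀ n, s n ∈ D.Sm (v n)) ∧ Tendsto s atTop (𝓝 t) :=
  vec_lim (S := fun n => D.Sm (v n)) (fun n => D.sm_rank _ _) (D.sm_cl hv) ht

/-- **bases of `D.Sm w` are limits of bases of `D.Sm (v n)`** -/
theorem sm_basis (D : ZDk k0 E W X) {v : ℕ → X} {w : X}
    (hv : TendstoUniformlyOn (fun n => D.N (v n)) (D.N w) atTop (ball 0 1)) {k : ℕ}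
    {b : Fin k → W} (hb : IsB b (D.Sm w)) :
    ∃ β : ℕ → Fin k → W, (∀ᶠ n in atTop, IsB (β n) (D.Sm (v n))) ∧ Tendsto β atTop (𝓝 b) :=
  basis_lim (S := fun n => D.Sm (v n)) (fun n => D.sm_rank _ _) (D.sm_cl hv) hb

/-- **bases near a given basis**, with `ε` and `δ` -/
theorem sm_basis_near (D : ZDk k0 E W X) {w : X} {k : ℕ} {b : Fin k → W} (hb : IsB b (D.Sm w))
    {ε : ℝ} (hε : 0 < ε) : ∃ δ > 0, ∀ v, (∀ x ∈ ball (0 : E) 1, ‖D.N v x - D.N w x‖ ≤ δ) →
      ∃ β : Fin k → W, IsB β (D.Sm v) ∧ ‖β - b‖ ≤ ε := by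
  by_contra hcon
  push Not at hcon
  choose! v hv hbad using fun n : ℕ => hcon (1 / ((n : ℝ) + 1)) (by positivity)
  have hlim : TendstoUniformlyOn (fun n => D.N (v n)) (D.N w) atTop (ball 0 1) := by
    rw [Metric.tendstoUniformlyOn_iff]
    intro ε hε
    have h1 := (tendsto_one_div_add_atTop_nhds_zero_nat (𝕜 := ℝ)).eventually (gt_mem_nhds hε)
    filter_upwards [h1] with n hn x hx
    rw [dist_comm, dist_eq_norm]
    exact (hv n x hx).trans_lt hn
  obtain ⟨β, hβ, hβl⟩ := D.sm_basis hlim hb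
  have h2 := (Metric.tendsto_nhds.1 hβl) ε hε
  obtain ⟨n, hn, hn'⟩ := (hβ.and h2).exists
  have h3 := hbad n (β n) hn
  rw [dist_eq_norm] at hn'
  linarith

/-- a closed set of tuples which contains all bases along a convergent sequence of frames contains
all bases of the limit -/
theorem bases_lim (D : ZDk k0 E W X) {v : ℕ → X} {w : X}
    (hv : TendstoUniformlyOn (fun n => D.N (v n)) (D.N w) atTop (ball 0 1)) {k : ℕ}
    {Z : Set (Fin k → W)} (hZ : IsClosed Z) (hvZ : ∀ n b, IsB b (D.Sm (v n)) → b ∈ Z)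
    {b : Fin k → W} (hb : IsB b (D.Sm w)) : b ∈ Z := by
  obtain ⟨β, hβ, hβl⟩ := D.sm_basis hv hb
  exact hZ.mem_of_tendsto hβl (hβ.mono fun n hn => hvZ n _ hn)

end ZDk

end Vale.Agent.P207.H686
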